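import Vale.Agent.P154.Ineq3
import Vale.Agent.P154.KS
import Vale.Agent.P154.Offspring

open Filter Topology Vale.Agent.P154

namespace Vale.Agent.Results.P154.Ferro3

theorem hlam3 {lam : ℝ} (h0 : 0 ≤ lam) : -(1 / (((3 : ℕ) : ℝ) - 1)) ≤ lam := by
  norm_num; linarith

theorem nonreconstruction {lam : ℝ} (h0 : 0 ≤ lam) (h1 : lam ≤ 1) {ξ : ℕ → ℝ}
    (hξ : ∀ k, 0 ≤ ξ k) (hξ1 : HasSum ξ 1) {m : ℝ}
    (hξm : HasSum (fun k : ℕ => (k : ℝ) * ξ k) m) (hcrit : m * lam ^ 2 ≤ 1)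
    (hbranch : ∃ k, 2 ≤ k ∧ 0 < ξ k) : Tendsto (adv 3 lam ξ) atTop (𝓝 0) := by
  rcases h0.eq_or_lt with h | h
  · subst h
    exact adv_lam_zero (by norm_num) hξ hξ1
  · exact adv3_tendsto_zero h h1 hξ hξ1 hξm hcrit hbranch

/-- The reconstruction threshold of the three-state ferromagnetic Potts channel, for all `d`-ary
trees and all Poisson Galton-Watson trees. -/
theorem result (lam : ℝ) (h0 : 0 ≤ lam) (h1 : lam ≤ 1) :
    (∀ d : ℕ, 2 ≤ d →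
      ((d : ℝ) * lam ^ 2 ≤ 1 → Tendsto (adv 3 lam (regular d)) atTop (𝓝 0)) ∧
      (1 < (d : ℝ) * lam ^ 2 → ∃ c : ℝ, 0 < c ∧ ∀ n, c ≤ adv 3 lam (regular d) n)) ∧
    (∀ d : ℝ, 0 < d →
      (d * lam ^ 2 ≤ 1 → Tendsto (adv 3 lam (poisson d)) atTop (𝓝 0)) ∧
      (1 < d * lam ^ 2 → ∃ c : ℝ, 0 < c ∧ ∀ n, c ≤ adv 3 lam (poisson d) n)) := by
  refine ⟨fun d hd => ⟨fun hc => ?_, fun hc => ?_⟩, fun d hd => ⟨fun hc => ?_, fun hc => ?_⟩⟩
  · exact nonreconstruction h0 h1 (regular_nonneg d) (hasSum_regular d)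
      (hasSum_regular_mul d fun k => (k : ℝ)) hc ⟨d, hd, by simp [regular]⟩
  · exact adv_bounded_below (by norm_num) (hlam3 h0) h1 (regular_nonneg d) (hasSum_regular d)
      (hasSum_regular_mul d fun k => (k : ℝ)) (hasSum_regular_mul d fun k => (k : ℝ) * (k - 1)) hc
  · exact nonreconstruction h0 h1 (fun k => (poisson_pos hd k).le) (hasSum_poisson d)
      (hasSum_poisson_mean d) hc ⟨2, le_rfl, poisson_pos hd 2⟩
  · exact adv_bounded_below (by norm_num) (hlam3 h0) h1 (fun k => (poisson_pos hd k).le)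
      (hasSum_poisson d) (hasSum_poisson_mean d) (hasSum_poisson_two d) hc

end Vale.Agent.Results.P154.Ferro3
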